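import Mathlib
import Vale.Agent.Lib.P317.Count

/-!
# P317: common bases when one matroid has large girth

Let `M₁`, `M₂` be matroids of rank `r` on a finite set with `n` elements such that every set with
at most `r - k` elements is independent in `M₁` (for `k = 1` this says that `M₁` is paving), the
matroid `M₂` being arbitrary. If there is a common base at all, then every base of `M₂` differs
from some common base in at most `2 k` elements, and so the common bases are at least a fraction
`(n + 1) ^ (- 4 k)` of the bases of `M₂`.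
-/

namespace Vale.Agent.Results.P317.LargeGirth

open Vale.Agent.Lib.P317

theorem result {α : Type*} [Fintype α] (M₁ M₂ : Matroid α) (r k : ℕ)
    (hE₁ : M₁.E = Set.univ) (hE₂ : M₂.E = Set.univ)
    (hr₁ : M₁.eRank = r) (hr₂ : M₂.eRank = r)
    (hk : ∀ S : Set α, S.ncard + k ≤ r → M₁.Indep S)
    (hN : ∃ B, M₁.IsBase B ∧ M₂.IsBase B) :
    (∀ X, M₂.IsBase X → ∃ B, M₁.IsBase B ∧ M₂.IsBase B ∧ (B \ X).ncard ≤ 2 * k) ∧
    {X : Set α | M₂.IsBase X}.ncard ≤
      (Fintype.card α + 1) ^ (4 * k) * {B : Set α | M₁.IsBase B ∧ M₂.IsBase B}.ncard :=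
  ⟨fun _ hX => dist M₁ M₂ r k hE₁ hE₂ hr₁ hr₂ hk hN hX,
    count M₁ M₂ r k hE₁ hE₂ hr₁ hr₂ hk hN⟩

end Vale.Agent.Results.P317.LargeGirth
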