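import Mathlib

namespace Vale.Agent.Results.P317.SixVertex

open Set

/-- The seven lines of the Fano plane on the points `0,...,6`. The points `0,1,2,3` form a
quadrangle and `4,5,6` are its three diagonal points. -/
def fanoLines : Finset (Finset (Fin 7)) :=
  {{0,1,4},{2,3,4},{0,2,5},{1,3,5},{0,3,6},{1,2,6},{4,5,6}}

/-- Bases of the Fano matroid: three points not on a line. -/
def fanoBase (F : Finset (Fin 7)) : Prop := F.card = 3 ∧ F ∉ fanoLines

instance : DecidablePred fanoBase := fun F => by unfold fanoBase; infer_instance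

set_option maxRecDepth 100000 in
lemma fano_exch : ∀ X Y : Finset (Fin 7), fanoBase X → fanoBase Y → ∀ a ∈ X, a ∉ Y →
    ∃ b ∈ Y, b ∉ X ∧ fanoBase (insert b (X.erase a)) := by
  decide +kernel

/-- The Fano matroid `F_7`. -/
def fano : Matroid (Fin 7) :=
  Matroid.ofIsBaseOfFinite (E := Set.univ) Set.finite_univ
    (fun B => ∃ F : Finset (Fin 7), (F : Set (Fin 7)) = B ∧ fanoBase F)
    ⟨_, {0,1,2}, rfl, by decide⟩
    (by
      rintro _ _ ⟨X, rfl, hX⟩ ⟨Y, rfl, hY⟩ a ⟨haX, haY⟩
      obtain ⟨b, hbY, hbX, hb⟩ := fano_exch X Y hX hY a (by simpa using haX) (by simpa using haY)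
      refine ⟨b, ⟨by simpa using hbY, by simpa using hbX⟩, insert b (X.erase a), ?_, hb⟩
      simp)
    (fun _ _ => Set.subset_univ _)

lemma fano_isBase_coe (F : Finset (Fin 7)) : fano.IsBase (F : Set (Fin 7)) ↔ fanoBase F := by
  constructor
  · rintro ⟨F', h, hF'⟩
    have : F' = F := by exact_mod_cast h
    exact this ▸ hF'
  · intro h
    exact ⟨F, rfl, h⟩

/-- The elements sitting at one vertex: four half-edges, and `t i` parallel copies of the
`i`-th diagonal point. -/
abbrev Loc (t : Fin 3 → ℕ) : Type := Fin 4 ⊕ ((i : Fin 3) × Fin (t i))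

/-- Half-edge `j` goes to the quadrangle point `j`; every copy of the `i`-th diagonal point goes
to the point `4 + i`. -/
def locMap (t : Fin 3 → ℕ) : Loc t → Fin 7
  | Sum.inl j => Fin.castLE (by norm_num) j
  | Sum.inr y => Fin.natAdd 4 y.1

set_option linter.unusedSectionVars false

variable {V Ed : Type} [Fintype V] [Fintype Ed]

/-- First matroid: direct sum over the vertices of parallel extensions of (restrictions of) the
Fano matroid. -/
def M₁ (t : V → Fin 3 → ℕ) : Matroid ((v : V) × Loc (t v)) :=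
  Matroid.sigma fun v => fano.comap (locMap (t v))

/-- The part of an element: a half-edge lies in the part of its edge, a copy of a diagonal point at
`v` lies in the part of `v`. -/
def part (t : V → Fin 3 → ℕ) (e : V × Fin 4 → Ed) : ((v : V) × Loc (t v)) → V ⊕ Ed
  | ⟨v, Sum.inl j⟩ => Sum.inr (e (v, j))
  | ⟨v, Sum.inr _⟩ => Sum.inl v

/-- Second matroid: the partition matroid in which a set is independent iff it contains at most
one element of each part. -/
def M₂ (t : V → Fin 3 → ℕ) (e : V × Fin 4 → Ed) : Matroid ((v : V) × Loc (t v)) :=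
  (Matroid.freeOn (Set.univ : Set (V ⊕ Ed))).comap (part t e)

/-- Number of common bases of two matroids on the same ground type. -/
noncomputable def numCommonBases {α : Type} (M N : Matroid α) : ℕ :=
  {B : Set α | M.IsBase B ∧ N.IsBase B}.ncard

/-- Six-vertex weight of a local configuration `s` (two half-edges out, two in): `a` for
`1100, 0011`, `b` for `1010, 0101`, `c` for `1001, 0110`. -/
def weight (a b c : ℕ) (s : Fin 4 → Bool) : ℕ :=
  if s 0 = s 1 then a else if s 0 = s 2 then b else c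

/-- Eulerian orientations: `σ v j = true` means half-edge `j` at `v` points out of `v`; every
vertex has out-degree two and every edge has exactly one outgoing half-edge. -/
def IsEulerian (e : V × Fin 4 → Ed) (σ : V → Fin 4 → Bool) : Prop :=
  (∀ v, {j : Fin 4 | σ v j = true}.ncard = 2) ∧
  (∀ d, {h : V × Fin 4 | e h = d ∧ σ h.1 h.2 = true}.ncard = 1)

open Classical in
/-- Partition function of the six-vertex model with weights
`(a,b,c) = (t 1 + t 2, t 0 + t 2, t 0 + t 1)` at each vertex. -/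
noncomputable def Z (t : V → Fin 3 → ℕ) (e : V × Fin 4 → Ed) : ℕ :=
  ∑ σ : V → Fin 4 → Bool, if IsEulerian e σ then
    ∏ v, weight (t v 1 + t v 2) (t v 0 + t v 2) (t v 0 + t v 1) (σ v) else 0

lemma comap_isBase_iff' {α β : Type} {N : Matroid β} {f : α → β} {B₀ : Set β} (hB₀ : N.IsBase B₀)
    (hr : B₀ ⊆ range f) {C : Set α} :
    (N.comap f).IsBase C ↔ N.IsBase (f '' C) ∧ InjOn f C := by
  constructor
  · intro h
    have hi := h.indep
    rw [Matroid.comap_indep_iff] at hi
    refine ⟨?_, hi.2⟩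
    by_contra hnb
    obtain ⟨z, hz, hzi⟩ := hi.1.exists_insert_of_not_isBase hnb hB₀
    obtain ⟨y, rfl⟩ := hr hz.1
    have hy : y ∉ C := fun hy => hz.2 (mem_image_of_mem f hy)
    have : (N.comap f).Indep (insert y C) := by
      rw [Matroid.comap_indep_iff, image_insert_eq]
      refine ⟨hzi, ?_⟩
      rw [injOn_insert hy]
      exact ⟨hi.2, hz.2⟩
    exact hy (h.mem_of_insert_indep this)
  · rintro ⟨hb, hinj⟩
    rw [Matroid.isBase_iff_maximal_indep]
    refine ⟨(Matroid.comap_indep_iff).2 ⟨hb.indep, hinj⟩, ?_⟩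
    intro C' hC' hCC'
    rw [Matroid.comap_indep_iff] at hC'
    have : f '' C = f '' C' := hb.eq_of_subset_indep hC'.1 (image_mono hCC')
    intro y hy
    have : f y ∈ f '' C := this ▸ mem_image_of_mem f hy
    obtain ⟨y', hy', he⟩ := this
    have := hC'.2 (hCC' hy') hy he
    exact this ▸ hy'


/-- The set of elements attached to an orientation `σ` and a choice `x` of one diagonal copy at
each vertex. -/
def S (t : V → Fin 3 → ℕ) (σ : V → Fin 4 → Bool) (x : ∀ v, (i : Fin 3) × Fin (t v i)) :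
    Set ((v : V) × Loc (t v)) :=
  {p | match p with
       | ⟨v, Sum.inl j⟩ => σ v j = true
       | ⟨v, Sum.inr y⟩ => y = x v}

lemma mem_S_inl (t : V → Fin 3 → ℕ) (σ : V → Fin 4 → Bool) (x : ∀ v, (i : Fin 3) × Fin (t v i))
    (v : V) (j : Fin 4) : (⟨v, Sum.inl j⟩ : (v : V) × Loc (t v)) ∈ S t σ x ↔ σ v j = true := Iff.rfl

lemma mem_S_inr (t : V → Fin 3 → ℕ) (σ : V → Fin 4 → Bool) (x : ∀ v, (i : Fin 3) × Fin (t v i))
    (v : V) (y : (i : Fin 3) × Fin (t v i)) :
    (⟨v, Sum.inr y⟩ : (v : V) × Loc (t v)) ∈ S t σ x ↔ y = x v := Iff.rfl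

def ok (s : Fin 4 → Bool) (i : Fin 3) : Prop := s 0 ≠ s i.succ

instance (s : Fin 4 → Bool) (i : Fin 3) : Decidable (ok s i) := by unfold ok; infer_instance

def FF (s : Fin 4 → Bool) (i : Fin 3) : Finset (Fin 7) :=
  (Finset.univ.filter (fun j => s j = true)).image (Fin.castLE (by norm_num)) ∪ {Fin.natAdd 4 i}

lemma fanoBase_FF : ∀ (s : Fin 4 → Bool) (i : Fin 3),
    fanoBase (FF s i) ↔ ((Finset.univ.filter (fun j => s j = true)).card = 2 ∧ ok s i) := by
  decide

lemma M₁_isBase_S (t : V → Fin 3 → ℕ) (σ : V → Fin 4 → Bool)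
    (x : ∀ v, (i : Fin 3) × Fin (t v i)) :
    (M₁ t).IsBase (S t σ x) ↔ ∀ v, {j : Fin 4 | σ v j = true}.ncard = 2 ∧ ok (σ v) (x v).1 := by
  unfold M₁
  rw [Matroid.sigma_isBase_iff]
  apply forall_congr'
  intro v
  have hB₀ : fano.IsBase (({0,1,2} : Finset (Fin 7)) : Set (Fin 7)) :=
    (fano_isBase_coe _).2 (by decide)
  have hr : (({0,1,2} : Finset (Fin 7)) : Set (Fin 7)) ⊆ range (locMap (t v)) := by
    intro z hz
    simp only [Finset.coe_insert, Finset.coe_singleton, mem_insert_iff, mem_singleton_iff] at hz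
    rcases hz with rfl | rfl | rfl
    · exact ⟨Sum.inl 0, rfl⟩
    · exact ⟨Sum.inl 1, rfl⟩
    · exact ⟨Sum.inl 2, rfl⟩
  rw [comap_isBase_iff' hB₀ hr]
  have himg : locMap (t v) '' (Sigma.mk (β := fun v => Loc (t v)) v ⁻¹' S t σ x) = (FF (σ v) (x v).1 : Set (Fin 7)) := by
    ext z
    simp only [mem_image, mem_preimage, FF, Finset.coe_union, Finset.coe_image, Finset.coe_filter,
      Finset.mem_univ, true_and, Finset.coe_singleton, mem_union, mem_ofPred_eq, mem_singleton_iff]
    constructor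
    · rintro ⟨p, hp, rfl⟩
      rcases p with j | y
      · exact Or.inl ⟨j, hp, rfl⟩
      · have : y = x v := hp
        right
        rw [this]; rfl
    · rintro (⟨j, hj, rfl⟩ | rfl)
      · exact ⟨Sum.inl j, hj, rfl⟩
      · exact ⟨Sum.inr (x v), rfl, rfl⟩
  have hinj : InjOn (locMap (t v)) (Sigma.mk (β := fun v => Loc (t v)) v ⁻¹' S t σ x) := by
    intro p hp q hq h
    rcases p with j | y <;> rcases q with j' | y'
    · simp only [locMap] at h
      rw [Fin.castLE_injective _ h]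
    · exfalso
      simp only [locMap, Fin.ext_iff, Fin.val_castLE, Fin.val_natAdd] at h
      omega
    · exfalso
      simp only [locMap, Fin.ext_iff, Fin.val_castLE, Fin.val_natAdd] at h
      omega
    · have h1 : y = x v := hp
      have h2 : y' = x v := hq
      rw [h1, h2]
  rw [himg, fano_isBase_coe, fanoBase_FF]
  have hc : {j : Fin 4 | σ v j = true}.ncard = (Finset.univ.filter (fun j => σ v j = true)).card := by
    rw [← Set.ncard_coe_finset]; congr 1; ext j; simp
  rw [hc]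
  tauto


lemma part_surj (t : V → Fin 3 → ℕ) (e : V × Fin 4 → Ed)
    (he : ∀ d, {h : V × Fin 4 | e h = d}.ncard = 2) (ht : ∀ v, ∃ i, 0 < t v i) :
    Function.Surjective (part t e) := by
  intro z
  rcases z with v | d
  · obtain ⟨i, hi⟩ := ht v
    exact ⟨⟨v, Sum.inr ⟨i, ⟨0, hi⟩⟩⟩, rfl⟩
  · have : {h : V × Fin 4 | e h = d}.Nonempty := by
      rw [← Set.ncard_pos (Set.toFinite _), he d]; norm_num
    obtain ⟨⟨v, j⟩, hh⟩ := this
    exact ⟨⟨v, Sum.inl j⟩, congrArg Sum.inr hh⟩

lemma M₂_isBase_iff (t : V → Fin 3 → ℕ) (e : V × Fin 4 → Ed)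
    (hs : Function.Surjective (part t e)) (B : Set ((v : V) × Loc (t v))) :
    (M₂ t e).IsBase B ↔ InjOn (part t e) B ∧ part t e '' B = univ := by
  unfold M₂
  rw [Matroid.comap_isBase_iff]
  simp only [Matroid.freeOn_ground, preimage_univ, image_univ, hs.range_eq, subset_univ, and_true,
    Matroid.freeOn_isBasis_iff]
  tauto

lemma M₂_isBase_S (t : V → Fin 3 → ℕ) (e : V × Fin 4 → Ed)
    (hs : Function.Surjective (part t e)) (σ : V → Fin 4 → Bool)
    (x : ∀ v, (i : Fin 3) × Fin (t v i)) :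
    (M₂ t e).IsBase (S t σ x) ↔
      ∀ d, {h : V × Fin 4 | e h = d ∧ σ h.1 h.2 = true}.ncard = 1 := by
  rw [M₂_isBase_iff t e hs]
  constructor
  · rintro ⟨hinj, hsur⟩ d
    rw [Set.ncard_eq_one]
    have : (Sum.inr d : V ⊕ Ed) ∈ part t e '' S t σ x := by rw [hsur]; trivial
    obtain ⟨⟨v, p⟩, hp, hpd⟩ := this
    rcases p with j | y
    · refine ⟨(v, j), ?_⟩
      ext ⟨v', j'⟩
      simp only [mem_ofPred_eq, mem_singleton_iff]
      constructor
      · rintro ⟨h1, h2⟩
        have h3 : part t e ⟨v', Sum.inl j'⟩ = part t e ⟨v, Sum.inl j⟩ := by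
          rw [hpd]; exact congrArg Sum.inr h1
        have := hinj (x₁ := ⟨v', Sum.inl j'⟩) h2 hp h3
        cases this
        rfl
      · intro h
        cases h
        exact ⟨Sum.inr_injective hpd, hp⟩
    · exact absurd hpd (by simp [part])
  · intro h
    constructor
    · rintro ⟨v, p⟩ hp ⟨v', q⟩ hq hpq
      rcases p with j | y <;> rcases q with j' | y'
      · have h1 : e (v, j) = e (v', j') := Sum.inr_injective hpq
        obtain ⟨a, ha⟩ := Set.ncard_eq_one.1 (h (e (v', j')))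
        have m1 : (v, j) ∈ {h : V × Fin 4 | e h = e (v', j') ∧ σ h.1 h.2 = true} := ⟨h1, hp⟩
        have m2 : (v', j') ∈ {h : V × Fin 4 | e h = e (v', j') ∧ σ h.1 h.2 = true} := ⟨rfl, hq⟩
        rw [ha] at m1 m2
        have : (v, j) = (v', j') := m1.trans m2.symm
        cases this
        rfl
      · exact absurd hpq (by simp [part])
      · exact absurd hpq (by simp [part])
      · have h1 : v = v' := Sum.inl_injective hpq
        subst h1
        have h2 : y = x v := hp
        have h3 : y' = x v := hq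
        rw [h2, h3]
    · rw [Set.eq_univ_iff_forall]
      intro z
      rcases z with v | d
      · exact ⟨⟨v, Sum.inr (x v)⟩, rfl, rfl⟩
      · obtain ⟨⟨v, j⟩, ha⟩ := Set.ncard_eq_one.1 (h d)
        have : (v, j) ∈ {h : V × Fin 4 | e h = d ∧ σ h.1 h.2 = true} := by rw [ha]; rfl
        exact ⟨⟨v, Sum.inl j⟩, this.2, congrArg Sum.inr this.1⟩

lemma exists_S (t : V → Fin 3 → ℕ) (e : V × Fin 4 → Ed)
    (hs : Function.Surjective (part t e)) (B : Set ((v : V) × Loc (t v)))
    (hB : (M₂ t e).IsBase B) : ∃ σ x, B = S t σ x := by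
  classical
  rw [M₂_isBase_iff t e hs] at hB
  obtain ⟨hinj, hsur⟩ := hB
  have hx : ∀ v, ∃ y : (i : Fin 3) × Fin (t v i), (⟨v, Sum.inr y⟩ : (v : V) × Loc (t v)) ∈ B := by
    intro v
    have : (Sum.inl v : V ⊕ Ed) ∈ part t e '' B := by rw [hsur]; trivial
    obtain ⟨⟨v', p⟩, hp, hpd⟩ := this
    rcases p with j | y
    · exact absurd hpd (by simp [part])
    · have : v' = v := Sum.inl_injective hpd
      subst this
      exact ⟨y, hp⟩
  choose x hx using hx
  refine ⟨fun v j => decide ((⟨v, Sum.inl j⟩ : (v : V) × Loc (t v)) ∈ B), x, ?_⟩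
  ext ⟨v, p⟩
  rcases p with j | y
  · rw [mem_S_inl]; simp
  · rw [mem_S_inr]
    constructor
    · intro h
      have := hinj h (hx v) rfl
      cases this
      rfl
    · intro h
      rw [h]; exact hx v

lemma S_injective (t : V → Fin 3 → ℕ) :
    Function.Injective (fun p : (V → Fin 4 → Bool) × (∀ v, (i : Fin 3) × Fin (t v i)) =>
      S t p.1 p.2) := by
  rintro ⟨σ, x⟩ ⟨σ', x'⟩ h
  simp only at h
  have h1 : σ = σ' := by
    funext v j
    have : (⟨v, Sum.inl j⟩ : (v : V) × Loc (t v)) ∈ S t σ x ↔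
        (⟨v, Sum.inl j⟩ : (v : V) × Loc (t v)) ∈ S t σ' x' := by rw [h]
    rw [mem_S_inl, mem_S_inl] at this
    cases h1 : σ v j <;> cases h2 : σ' v j <;> simp_all
  have h2 : x = x' := by
    funext v
    have : (⟨v, Sum.inr (x v)⟩ : (v : V) × Loc (t v)) ∈ S t σ' x' := by
      rw [← h]; rfl
    exact this
  rw [h1, h2]


lemma two_cases : ∀ s : Fin 4 → Bool, (Finset.univ.filter (fun j => s j = true)).card = 2 →
    ((s 0 = s 1 ∧ s 0 ≠ s 2 ∧ s 0 ≠ s 3) ∨ (s 0 ≠ s 1 ∧ s 0 = s 2 ∧ s 0 ≠ s 3) ∨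
      (s 0 ≠ s 1 ∧ s 0 ≠ s 2 ∧ s 0 = s 3)) := by
  decide

lemma card_ok (t : Fin 3 → ℕ) (s : Fin 4 → Bool) (hs : {j : Fin 4 | s j = true}.ncard = 2) :
    (Finset.univ.filter (fun y : (i : Fin 3) × Fin (t i) => ok s y.1)).card =
      weight (t 1 + t 2) (t 0 + t 2) (t 0 + t 1) s := by
  have hc : {j : Fin 4 | s j = true}.ncard = (Finset.univ.filter (fun j => s j = true)).card := by
    rw [← Set.ncard_coe_finset]; congr 1; ext j; simp
  rw [hc] at hs
  rw [Finset.card_filter, Fintype.sum_sigma, Fin.sum_univ_three]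
  have o0 : ok s 0 ↔ s 0 ≠ s 1 := Iff.rfl
  have o1 : ok s 1 ↔ s 0 ≠ s 2 := Iff.rfl
  have o2 : ok s 2 ↔ s 0 ≠ s 3 := Iff.rfl
  rcases two_cases s hs with ⟨h1, h2, h3⟩ | ⟨h1, h2, h3⟩ | ⟨h1, h2, h3⟩
  · have k0 : ¬ ok s 0 := fun h => (o0.1 h) h1
    have k1 : ok s 1 := o1.2 h2
    have k2 : ok s 2 := o2.2 h3
    have w : weight (t 1 + t 2) (t 0 + t 2) (t 0 + t 1) s = t 1 + t 2 := by
      unfold weight; rw [if_pos h1]
    rw [w]
    simp [k0, k1, k2]
  · have k0 : ok s 0 := o0.2 h1
    have k1 : ¬ ok s 1 := fun h => (o1.1 h) h2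
    have k2 : ok s 2 := o2.2 h3
    have w : weight (t 1 + t 2) (t 0 + t 2) (t 0 + t 1) s = t 0 + t 2 := by
      unfold weight; rw [if_neg h1, if_pos h2]
    rw [w]
    simp [k0, k1, k2]
  · have k0 : ok s 0 := o0.2 h1
    have k1 : ok s 1 := o1.2 h2
    have k2 : ¬ ok s 2 := fun h => (o2.1 h) h3
    have w : weight (t 1 + t 2) (t 0 + t 2) (t 0 + t 1) s = t 0 + t 1 := by
      unfold weight; rw [if_neg h1, if_neg h2]
    rw [w]
    simp [k0, k1, k2]

lemma M₁_eRank (t : V → Fin 3 → ℕ) : (M₁ t).eRank = ((3 * Fintype.card V : ℕ) : ℕ∞) := by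
  let g : V × Fin 3 → (v : V) × Loc (t v) := fun p => ⟨p.1, Sum.inl (Fin.castSucc p.2)⟩
  have hg : Function.Injective g := by
    rintro ⟨v, k⟩ ⟨v', k'⟩ h
    simp only [g, Sigma.mk.injEq] at h
    obtain ⟨rfl, h2⟩ := h
    have h3 := Sum.inl_injective (eq_of_heq h2)
    rw [Fin.castSucc_injective _ h3]
  have hB₀ : fano.IsBase (({0,1,2} : Finset (Fin 7)) : Set (Fin 7)) :=
    (fano_isBase_coe _).2 (by decide)
  have hb : (M₁ t).IsBase (range g) := by
    unfold M₁
    rw [Matroid.sigma_isBase_iff]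
    intro v
    have hr : (({0,1,2} : Finset (Fin 7)) : Set (Fin 7)) ⊆ range (locMap (t v)) := by
      intro z hz
      simp only [Finset.coe_insert, Finset.coe_singleton, mem_insert_iff, mem_singleton_iff] at hz
      rcases hz with rfl | rfl | rfl
      · exact ⟨Sum.inl 0, rfl⟩
      · exact ⟨Sum.inl 1, rfl⟩
      · exact ⟨Sum.inl 2, rfl⟩
    rw [comap_isBase_iff' hB₀ hr]
    have hpre : (Sigma.mk (β := fun v => Loc (t v)) v ⁻¹' range g) =
        range (fun k : Fin 3 => (Sum.inl (Fin.castSucc k) : Loc (t v))) := by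
      ext p
      simp only [mem_preimage, mem_range, g, Prod.exists]
      constructor
      · rintro ⟨v', k, h⟩
        simp only [Sigma.mk.injEq] at h
        obtain ⟨rfl, h2⟩ := h
        exact ⟨k, eq_of_heq h2⟩
      · rintro ⟨k, rfl⟩
        exact ⟨v, k, rfl⟩
    rw [hpre]
    constructor
    · have : locMap (t v) '' range (fun k : Fin 3 => (Sum.inl (Fin.castSucc k) : Loc (t v))) =
          (({0,1,2} : Finset (Fin 7)) : Set (Fin 7)) := by
        rw [← range_comp]
        ext z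
        simp only [mem_range, Function.comp, locMap, Finset.coe_insert, Finset.coe_singleton,
          mem_insert_iff, mem_singleton_iff]
        constructor
        · rintro ⟨k, rfl⟩
          fin_cases k <;> simp
        · rintro (rfl | rfl | rfl)
          · exact ⟨0, rfl⟩
          · exact ⟨1, rfl⟩
          · exact ⟨2, rfl⟩
      rw [this]; exact hB₀
    · rintro _ ⟨k, rfl⟩ _ ⟨k', rfl⟩ h
      simp only [locMap] at h
      rw [Fin.castSucc_injective _ (Fin.castLE_injective _ h)]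
  rw [← hb.encard_eq_eRank, ← image_univ, hg.injOn.encard_image, Set.encard_univ]
  simp [mul_comm]

lemma card_Ed (e : V × Fin 4 → Ed) (he : ∀ d, {h : V × Fin 4 | e h = d}.ncard = 2) :
    Fintype.card Ed = 2 * Fintype.card V := by
  classical
  have h1 : Fintype.card (V × Fin 4) = ∑ d : Ed, (Finset.univ.filter (fun h => e h = d)).card := by
    rw [← Finset.card_univ]
    exact Finset.card_eq_sum_card_fiberwise (fun _ _ => Finset.mem_univ _)
  have h2 : ∀ d : Ed, (Finset.univ.filter (fun h => e h = d)).card = 2 := by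
    intro d
    rw [← he d, ← Set.ncard_coe_finset]; congr 1; ext h; simp
  simp only [h2, Finset.sum_const, Finset.card_univ, smul_eq_mul, Fintype.card_prod,
    Fintype.card_fin] at h1
  omega

lemma M₂_eRank (t : V → Fin 3 → ℕ) (e : V × Fin 4 → Ed)
    (he : ∀ d, {h : V × Fin 4 | e h = d}.ncard = 2) (ht : ∀ v, ∃ i, 0 < t v i) :
    (M₂ t e).eRank = ((3 * Fintype.card V : ℕ) : ℕ∞) := by
  obtain ⟨B, hB⟩ := (M₂ t e).exists_isBase
  have h := (M₂_isBase_iff t e (part_surj t e he ht) B).1 hB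
  rw [← hB.encard_eq_eRank, ← h.1.encard_image, h.2, Set.encard_univ]
  simp only [ENat.card_eq_coe_fintype_card, Fintype.card_sum, card_Ed e he]
  congr 1; ring

/-- For every 4-regular multigraph (vertices `V`, edges `Ed`, half-edge map `e`) and all vertex
parameters `t`, the matroids `M₁ t` and `M₂ t e` both have rank `3 |V|` and the number of their
common bases equals the six-vertex partition function with weights
`(t 1 + t 2, t 0 + t 2, t 0 + t 1)`. -/
theorem result (t : V → Fin 3 → ℕ) (e : V × Fin 4 → Ed)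
    (he : ∀ d, {h : V × Fin 4 | e h = d}.ncard = 2) (ht : ∀ v, ∃ i, 0 < t v i) :
    (M₁ t).eRank = ((3 * Fintype.card V : ℕ) : ℕ∞) ∧
    (M₂ t e).eRank = ((3 * Fintype.card V : ℕ) : ℕ∞) ∧
    numCommonBases (M₁ t) (M₂ t e) = Z t e := by
  classical
  refine ⟨M₁_eRank t, M₂_eRank t e he ht, ?_⟩
  have hs := part_surj t e he ht
  have hset : {B | (M₁ t).IsBase B ∧ (M₂ t e).IsBase B} =
      (fun p : (V → Fin 4 → Bool) × (∀ v, (i : Fin 3) × Fin (t v i)) => S t p.1 p.2) ''
        {p | IsEulerian e p.1 ∧ ∀ v, ok (p.1 v) (p.2 v).1} := by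
    ext B
    constructor
    · rintro ⟨h1, h2⟩
      obtain ⟨σ, x, rfl⟩ := exists_S t e hs B h2
      exact ⟨(σ, x), ⟨⟨fun v => ((M₁_isBase_S t σ x).1 h1 v).1, (M₂_isBase_S t e hs σ x).1 h2⟩,
        fun v => ((M₁_isBase_S t σ x).1 h1 v).2⟩, rfl⟩
    · rintro ⟨⟨σ, x⟩, ⟨⟨h1, h2⟩, h3⟩, rfl⟩
      exact ⟨(M₁_isBase_S t σ x).2 fun v => ⟨h1 v, h3 v⟩, (M₂_isBase_S t e hs σ x).2 h2⟩
  unfold numCommonBases
  rw [hset, Set.ncard_image_of_injective _ (S_injective t)]
  have hfin : {p : (V → Fin 4 → Bool) × (∀ v, (i : Fin 3) × Fin (t v i)) |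
      IsEulerian e p.1 ∧ ∀ v, ok (p.1 v) (p.2 v).1} =
      ↑(Finset.univ.filter (fun p : (V → Fin 4 → Bool) × (∀ v, (i : Fin 3) × Fin (t v i)) =>
      IsEulerian e p.1 ∧ ∀ v, ok (p.1 v) (p.2 v).1)) := by
    ext p; simp
  rw [hfin, Set.ncard_coe_finset, Finset.card_filter, Fintype.sum_prod_type]
  unfold Z
  apply Finset.sum_congr rfl
  intro σ _
  by_cases hE : IsEulerian e σ
  · simp only [hE, true_and, if_true]
    rw [← Finset.card_filter]
    have hpi : Finset.univ.filter (fun x : ∀ v, (i : Fin 3) × Fin (t v i) =>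
        ∀ v, ok (σ v) (x v).1) =
        Fintype.piFinset (fun v => Finset.univ.filter
          (fun y : (i : Fin 3) × Fin (t v i) => ok (σ v) y.1)) := by
      ext x; simp [Fintype.mem_piFinset]
    rw [hpi, Fintype.card_piFinset]
    apply Finset.prod_congr rfl
    intro v _
    exact card_ok (t v) (σ v) (hE.1 v)
  · simp [hE]

end Vale.Agent.Results.P317.SixVertex
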