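import Mathlib
import Vale.Agent.Results.P317.LargeGirth
import Vale.Agent.Results.P317.SixVertex

/-!
# P317: the two partial results in one statement

(1) If every set with at most `r - k` elements is independent in `M₁` (for `k = 1`: `M₁` paving),
`M₂` is arbitrary and a common base exists, then every base of `M₂` is within `2 k` of a common
base and the common bases are at least a fraction `(n + 1) ^ (- 4 k)` of the bases of `M₂`.

(2) The six-vertex partition function of a 4-regular multigraph with vertex weights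
`(t 1 + t 2, t 0 + t 2, t 0 + t 1)` is the number of common bases of a direct sum of parallel
extensions of the Fano matroid and a partition matroid.
-/

namespace Vale.Agent.Results.P317.Combined

open Vale.Agent.Results.P317.SixVertex

theorem result :
    (∀ (α : Type) [Fintype α] (N₁ N₂ : Matroid α) (r k : ℕ),
      N₁.E = Set.univ → N₂.E = Set.univ → N₁.eRank = r → N₂.eRank = r →
      (∀ S : Set α, S.ncard + k ≤ r → N₁.Indep S) →
      (∃ B, N₁.IsBase B ∧ N₂.IsBase B) →
      (∀ X, N₂.IsBase X → ∃ B, N₁.IsBase B ∧ N₂.IsBase B ∧ (B \ X).ncard ≤ 2 * k) ∧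
      {X : Set α | N₂.IsBase X}.ncard ≤ (Fintype.card α + 1) ^ (4 * k) * numCommonBases N₁ N₂) ∧
    (∀ (V Ed : Type) [Fintype V] [Fintype Ed] (t : V → Fin 3 → ℕ) (e : V × Fin 4 → Ed),
      (∀ d, {h : V × Fin 4 | e h = d}.ncard = 2) → (∀ v, ∃ i, 0 < t v i) →
      (M₁ t).eRank = ((3 * Fintype.card V : ℕ) : ℕ∞) ∧
      (M₂ t e).eRank = ((3 * Fintype.card V : ℕ) : ℕ∞) ∧
      numCommonBases (M₁ t) (M₂ t e) = Z t e) :=
  ⟨fun _ _ N₁ N₂ r k hE₁ hE₂ hr₁ hr₂ hk hN =>
      Vale.Agent.Results.P317.LargeGirth.result N₁ N₂ r k hE₁ hE₂ hr₁ hr₂ hk hN,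
    fun _ _ _ _ t e he ht => Vale.Agent.Results.P317.SixVertex.result t e he ht⟩

end Vale.Agent.Results.P317.Combined
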